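import Vale.Agent.P150.Det

/-! The spectral gap is positive. -/

namespace Vale.Agent.P150S

open Real Finset Vale.Agent.P150

noncomputable section

section Gen
variable {ι : Type} [Fintype ι] [DecidableEq ι] {W W' f : (ι → Bool) → ℝ} {a : ℝ}

theorem Ex_cmp (h : ∀ x, W x ≤ a * W' x) (hf : ∀ x, 0 ≤ f x) : Ex W f ≤ a * Ex W' f := by
  rw [Ex, Ex, mul_sum]
  exact sum_le_sum fun x _ => by
    rw [← mul_assoc]
    exact mul_le_mul_of_nonneg_right (h x) (hf x)

theorem var_min (hW : ∀ x, 0 < W x) (c : ℝ) :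
    Ex W (fun x => (f x - av W f) ^ 2) ≤ Ex W fun x => (f x - c) ^ 2 := by
  have h1 : Ex W (fun x => (f x - av W f) ^ 2 + 2 * (av W f - c) * (f x - av W f)) ≤
      Ex W fun x => (f x - c) ^ 2 := Ex_mono hW fun x => by nlinarith [sq_nonneg (av W f - c)]
  rw [Ex_add, Ex_mul, Ex_sub, Ex_const] at h1
  have h2 : (Ex W fun x => f x) = av W f * ∑ x, W x := Ex_eq_av hW f
  rwa [h2, sub_self, mul_zero, add_zero] at h1

theorem Dir_cmp (hW' : ∀ x, 0 < W' x) (h : ∀ x, W' x ≤ a * W x) : Dir W' f ≤ a * Dir W f := by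
  rw [Dir, Dir, mul_sum]
  refine sum_le_sum fun i _ => le_trans ?_ (Ex_cmp h fun x => mul_self_nonneg _)
  have h1 : Ex W' (fun x => Dw W' i f x * Dw W' i f x +
      2 * ((Qw W' i f x - Qw W i f x) * Dw W' i f x)) ≤ Ex W' fun x => Dw W i f x * Dw W i f x :=
    Ex_mono hW' fun x => by
      simp only [Dw]
      nlinarith [sq_nonneg (Qw W' i f x - Qw W i f x)]
  rwa [Ex_add, Ex_mul, Ex_ind_Dw hW' (g := fun x => Qw W' i f x - Qw W i f x) fun x b => by
    simp only [ind_Qw W' i f x b, ind_Qw W i f x b], mul_zero, add_zero] at h1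

end Gen

theorem gap_pos {n : ℕ} (hn : 0 < n) (β : ℝ) (g : Pair n → ℝ) : 0 < gap β g := by
  have hW := isw_pos (Jm β g) fun _ => 0
  have hW' := isw_pos (Jm 0 g) fun _ => 0
  have hJ : Good (Jm 0 g) 1 := ⟨one_pos, le_rfl, Jm_symm, Jm_diag, fun u => by simp [Jm],
    fun i => by simp [Jm], fun i j => by simp [Jm]⟩
  set W := isw (Jm β g) fun _ => 0 with hWd
  set W' := isw (Jm 0 g) fun _ => 0 with hWd'
  set a := ∑ x, W x / W' x with ha
  set b := ∑ x, W' x / W x with hb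
  have a1 : ∀ x, W x ≤ a * W' x := fun x => (div_le_iff₀ (hW' x)).1
    (single_le_sum (f := fun x => W x / W' x) (fun y _ => (div_pos (hW y) (hW' y)).le) (mem_univ x))
  have b1 : ∀ x, W' x ≤ b * W x := fun x => (div_le_iff₀ (hW x)).1
    (single_le_sum (f := fun x => W' x / W x) (fun y _ => (div_pos (hW' y) (hW y)).le) (mem_univ x))
  have a0 : 0 < a := sum_pos (fun y _ => div_pos (hW y) (hW' y)) univ_nonempty
  have b0 : 0 < b := sum_pos (fun y _ => div_pos (hW' y) (hW y)) univ_nonempty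
  have h2 : form β g (fun x => spin (x ⟨0, hn⟩)) ∈
      {r : ℝ | ∃ f : Conf n → ℝ, var β g f ≠ 0 ∧ r = form β g f / var β g f} :=
    ⟨fun x => spin (x ⟨0, hn⟩), by rw [var_spin]; exact one_ne_zero, by rw [var_spin, div_one]⟩
  refine lt_of_lt_of_le (by positivity : 0 < 1 / (2 * a * b)) (le_csInf ⟨_, h2⟩ ?_)
  rintro r ⟨f, hf, rfl⟩
  have v0 : 0 ≤ var β g f := by
    rw [var_eq]
    exact div_nonneg (Ex_nonneg hW fun _ => sq_nonneg _) (sumW_pos hW).le
  rw [div_le_div_iff₀ (by positivity) (v0.lt_of_ne' hf), one_mul, var_eq, form_eq,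
    div_mul_eq_mul_div]
  refine div_le_div_of_nonneg_right ?_ (sumW_pos hW).le
  have h3 := hJ.var_le f
  rw [var_eq, form_eq, ← mul_div_assoc, div_le_div_iff_of_pos_right (sumW_pos hW')] at h3
  have h4 := (var_min (f := f) hW (av W' f)).trans (Ex_cmp a1 fun x => sq_nonneg _)
  have h5 := mul_le_mul_of_nonneg_left (h3.trans (Dir_cmp (f := f) hW' b1)) a0.le
  linarith

end

end Vale.Agent.P150S
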