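import Vale.Agent.P150S.Defs

/-! Positive association for fields with nonnegative covariance (Pitt, Kahane).

Proof. Index `J = I ⊕ I`, `ω : J → ℝ`, `E θ : J → S ⊕ S → ℝ` with
`E θ (inl i) (inl y) = e i y`, `E θ (inr i) (inl y) = 0`, `E θ (inl i) (inr z) = cos θ * e i z`,
`E θ (inr i) (inr z) = sin θ * e i z`, `α = Sum.elim a b`, `Ψ θ = La (E θ) α`.
`Ψ' θ = -∑ s, ∑ j, E' j s * ∫ ω j * (α s * exp (X s) * U)`, `U = exp (-Zw)`, `X = Hf (E θ) ω`
(`hasDerivAt_integral_of_dominated_loc_of_deriv_le`; `α s * exp (X s) * U ≤ 1` because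
`α s * exp (X s) ≤ Zw` and `T * exp (-T) ≤ 1`, `T ^ 2 * exp (-T) ≤ 2`).
`Vale.Agent.P146M.gauss_ibp` with `Measure.dirac ()` (see `tilt_ibp_real` in `P146L/Ibp.lean` for the
pattern) gives `∫ ω j * (α s e^(X s) U) = E j s * ∫ α s e^(X s) U - ∑ t, E j t * ∫ α s α t e^(X s + X t) U`.
Now `∑ j, E' j s * E j s = 0` and `∑ j, E' j s * E j t` is `0` or `-sin θ * cv e z y ≤ 0`, so `Ψ` is
antitone on `[0, π / 2]` (`antitoneOn_of_deriv_nonpos`). `Ψ 0 = La e (a + b)` (`mp_gm` for
`ω ↦ ω ∘ inl`), `Ψ (π / 2) = La e a * La e b` (`measurePreserving_sumPiEquivProdPi`,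
`integral_prod_mul`). -/

namespace Vale.Agent.P150S

open MeasureTheory ProbabilityTheory Real Finset Vale.Agent.P150

noncomputable section

variable {I S : Type} [Fintype I] [Fintype S] {e : I → S → ℝ} {a b : S → ℝ}

/-- the weight -/
def KahU (a h : S → ℝ) : ℝ := exp (-∑ x, a x * exp (h x))

/-- first order terms -/
def KahA (a h : S → ℝ) (s : S) : ℝ := a s * exp (h s) * KahU a h

/-- second order terms -/
def KahB (a h : S → ℝ) (s t : S) : ℝ := a s * exp (h s) * (a t * exp (h t)) * KahU a h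

theorem Kah_le (ha : ∀ x, 0 ≤ a x) (h : S → ℝ) (s : S) :
    0 ≤ a s * exp (h s) ∧ a s * exp (h s) ≤ ∑ x, a x * exp (h x) :=
  ⟨mul_nonneg (ha s) (exp_pos _).le, single_le_sum (f := fun x => a x * exp (h x))
    (fun x _ => mul_nonneg (ha x) (exp_pos _).le) (mem_univ s)⟩

theorem Kah_A (ha : ∀ x, 0 ≤ a x) (h : S → ℝ) (s : S) : |KahA a h s| ≤ 1 := by
  obtain ⟨h1, h2⟩ := Kah_le ha h s
  rw [KahA, KahU, abs_of_nonneg (mul_nonneg h1 (exp_pos _).le), exp_neg, ← div_eq_mul_inv,
    div_le_one (exp_pos _)]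
  linarith [add_one_le_exp (∑ x, a x * exp (h x))]

theorem Kah_B0 (ha : ∀ x, 0 ≤ a x) (h : S → ℝ) (s t : S) : 0 ≤ KahB a h s t :=
  mul_nonneg (mul_nonneg (Kah_le ha h s).1 (Kah_le ha h t).1) (exp_pos _).le

theorem Kah_B (ha : ∀ x, 0 ≤ a x) (h : S → ℝ) (s t : S) : |KahB a h s t| ≤ 2 := by
  obtain ⟨h1, h2⟩ := Kah_le ha h s
  obtain ⟨h3, h4⟩ := Kah_le ha h t
  rw [abs_of_nonneg (Kah_B0 ha h s t), KahB, KahU, exp_neg, ← div_eq_mul_inv,
    div_le_iff₀ (exp_pos _)]
  have h5 := mul_le_mul h2 h4 h3 (h1.trans h2)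
  nlinarith [quadratic_le_exp_of_nonneg (h1.trans h2)]

theorem Kah_dU {X : ℝ → S → ℝ} {X' : S → ℝ} {θ : ℝ}
    (h : ∀ x, HasDerivAt (fun θ => X θ x) (X' x) θ) :
    HasDerivAt (fun θ => KahU a (X θ)) (-∑ x, X' x * KahA a (X θ) x) θ := by
  refine (HasDerivAt.fun_sum fun x _ => (h x).exp.const_mul (a x)).fun_neg.exp.congr_deriv ?_
  rw [mul_neg, mul_sum]
  exact congrArg _ (sum_congr rfl fun x _ => by rw [KahA, KahU]; ring)

theorem Kah_dA {X : ℝ → S → ℝ} {X' : S → ℝ} {θ : ℝ}
    (h : ∀ x, HasDerivAt (fun θ => X θ x) (X' x) θ) (s : S) :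
    HasDerivAt (fun θ => KahA a (X θ) s)
      (X' s * KahA a (X θ) s - ∑ t, X' t * KahB a (X θ) s t) θ := by
  refine (((h s).exp.const_mul (a s)).fun_mul (Kah_dU h)).congr_deriv ?_
  rw [mul_neg, mul_sum, ← sub_eq_add_neg]
  exact congrArg₂ _ (by rw [KahA]; ring) (sum_congr rfl fun x _ => by rw [KahA, KahB]; ring)

@[fun_prop] theorem Kah_cA (e : I → S → ℝ) (a : S → ℝ) (s : S) :
    Continuous fun g => KahA a (Hf e g) s := by
  unfold KahA KahU
  fun_prop

@[fun_prop] theorem Kah_cB (e : I → S → ℝ) (a : S → ℝ) (s t : S) :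
    Continuous fun g => KahB a (Hf e g) s t := by
  unfold KahB KahU
  fun_prop

theorem Kah_iA (ha : ∀ x, 0 ≤ a x) (s : S) : Integrable (fun g => KahA a (Hf e g) s) (gm I) :=
  Integrable.of_bound (Kah_cA e a s).aestronglyMeasurable 1 (ae_of_all _ fun _ => Kah_A ha _ s)

theorem Kah_iB (ha : ∀ x, 0 ≤ a x) (s t : S) :
    Integrable (fun g => KahB a (Hf e g) s t) (gm I) :=
  Integrable.of_bound (Kah_cB e a s t).aestronglyMeasurable 2
    (ae_of_all _ fun _ => Kah_B ha _ s t)

theorem Kah_i (i : I) : Integrable (fun g : I → ℝ => g i) (gm I) :=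
  integrable_eval IsGaussian.integrable_id

theorem Kah_ibp (ha : ∀ x, 0 ≤ a x) (i : I) (s : S) :
    ∫ g, g i * KahA a (Hf e g) s ∂gm I = e i s * ∫ g, KahA a (Hf e g) s ∂gm I -
      ∑ t, e i t * ∫ g, KahB a (Hf e g) s t ∂gm I := by
  classical
  have hC : 0 ≤ |e i s| + ∑ t, |e i t| * 2 := by positivity
  have hb : ∀ (g : I → ℝ) (x : ℝ), |x| ≤ 1 + (|e i s| + ∑ t, |e i t| * 2) →
      |x| ≤ (1 + (|e i s| + ∑ t, |e i t| * 2)) *
        exp ((1 + (|e i s| + ∑ t, |e i t| * 2)) * ∑ i, |g i|) := fun g x hx =>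
    hx.trans (le_mul_of_one_le_right (by positivity) (one_le_exp (by positivity)))
  have key := P146M.gauss_ibp (Measure.dirac ())
    (F := fun w : Unit × (I → ℝ) => KahA a (Hf e w.2) s)
    (F' := fun w => e i s * KahA a (Hf e w.2) s - ∑ t, e i t * KahB a (Hf e w.2) s t)
    ((Kah_cA e a s).comp continuous_snd).measurable
    (Continuous.measurable ((continuous_const.mul ((Kah_cA e a s).comp continuous_snd)).sub
      (continuous_finsetSum _ fun t _ =>
        continuous_const.mul ((Kah_cB e a s t).comp continuous_snd)))) i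
    (fun _ v => by
      have h1 := Kah_dA (a := a) (X := fun θ => Hf e (v + Pi.single i θ)) (X' := e i) (θ := 0)
        (fun x => by
          have e1 : (fun θ => Hf e (v + Pi.single i θ) x) = fun θ => Hf e v x + θ * e i x := by
            funext θ
            simp [Hf, add_mul, sum_add_distrib, Pi.single_apply]
          rw [e1]
          simpa using ((hasDerivAt_id (0 : ℝ)).mul_const (e i x)).const_add (Hf e v x)) s
      simpa only [Pi.single_zero, add_zero] using h1)
    (fun w => hb _ _ ((Kah_A ha _ s).trans (by linarith))) fun w => hb _ _ (by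
      refine (abs_sub _ _).trans ((add_le_add ?_ ((abs_sum_le_sum_abs _ _).trans
        (sum_le_sum fun t _ => ?_))).trans (le_add_of_nonneg_left zero_le_one))
      · rw [abs_mul]
        exact mul_le_of_le_one_right (abs_nonneg _) (Kah_A ha _ s)
      · rw [abs_mul]
        exact mul_le_mul_of_nonneg_left (Kah_B ha _ s t) (abs_nonneg _))
  rw [integral_fun_snd (f := fun g : I → ℝ => g i * KahA a (Hf e g) s),
    integral_fun_snd (f := fun g : I → ℝ =>
      e i s * KahA a (Hf e g) s - ∑ t, e i t * KahB a (Hf e g) s t)] at key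
  simp only [probReal_univ, one_smul] at key
  rw [key, integral_sub ((Kah_iA ha s).const_mul _)
    (integrable_finsetSum _ fun t _ => (Kah_iB ha s t).const_mul _), integral_const_mul,
    integral_finsetSum _ fun t _ => (Kah_iB ha s t).const_mul _]
  simp only [integral_const_mul]

theorem Kah_deriv (ha : ∀ x, 0 ≤ a x) {E E' : ℝ → I → S → ℝ} {K : I → S → ℝ}
    (hE : ∀ θ i s, HasDerivAt (fun θ => E θ i s) (E' θ i s) θ) (hK : ∀ θ i s, |E' θ i s| ≤ K i s)
    (θ : ℝ) : ∃ D, HasDerivAt (fun θ => La (E θ) a) D θ ∧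
      ((∀ s, ∑ i, E' θ i s * E θ i s = 0) → (∀ s t, ∑ i, E' θ i s * E θ i t ≤ 0) → D ≤ 0) := by
  have key := hasDerivAt_integral_of_dominated_loc_of_deriv_le (μ := gm I) (x₀ := θ)
    (F := fun θ g => exp (-Zw (E θ) a g))
    (F' := fun θ g => -∑ s, Hf (E' θ) g s * KahA a (Hf (E θ) g) s)
    (bound := fun g => ∑ s, ∑ i, |g i| * K i s) Filter.univ_mem
    (Filter.Eventually.of_forall fun θ => (La_int ha).1) (La_int ha)
    (Continuous.aestronglyMeasurable (by fun_prop))
    (ae_of_all _ fun g θ _ => by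
      rw [norm_neg]
      refine (abs_sum_le_sum_abs _ _).trans (sum_le_sum fun s _ => ?_)
      rw [abs_mul]
      refine (mul_le_of_le_one_right (abs_nonneg _) (Kah_A ha _ s)).trans
        ((abs_sum_le_sum_abs _ _).trans (sum_le_sum fun i _ => ?_))
      rw [abs_mul]
      exact mul_le_mul_of_nonneg_left (hK θ i s) (abs_nonneg _))
    (integrable_finsetSum _ fun s _ => integrable_finsetSum _ fun i _ =>
      (Kah_i i).abs.mul_const _)
    (ae_of_all _ fun g θ _ => Kah_dU (X := fun θ => Hf (E θ) g) fun x =>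
      HasDerivAt.fun_sum fun i _ => (hE θ i x).const_mul (g i))
  refine ⟨_, key.2, fun h0 h1 => ?_⟩
  have hi : ∀ s i, Integrable (fun g => E' θ i s * (g i * KahA a (Hf (E θ) g) s)) (gm I) :=
    fun s i => ((Kah_i i).mul_bdd (Kah_cA _ a s).aestronglyMeasurable
      (ae_of_all _ fun _ => Kah_A ha _ s)).const_mul _
  have e1 : ∀ g s, Hf (E' θ) g s * KahA a (Hf (E θ) g) s =
      ∑ i, E' θ i s * (g i * KahA a (Hf (E θ) g) s) := fun g s => by
    rw [Hf, sum_mul]
    exact sum_congr rfl fun i _ => by ring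
  simp only [e1]
  rw [integral_neg, neg_nonpos,
    integral_finsetSum _ fun s _ => integrable_finsetSum _ fun i _ => hi s i]
  refine sum_nonneg fun s _ => ?_
  rw [integral_finsetSum _ fun i _ => hi s i]
  simp only [integral_const_mul, Kah_ibp ha]
  simp only [mul_sub, sum_sub_distrib, mul_sum, ← mul_assoc]
  rw [← sum_mul, h0, zero_mul, zero_sub, neg_nonneg, sum_comm]
  refine sum_nonpos fun t _ => ?_
  rw [← sum_mul]
  exact mul_nonpos_of_nonpos_of_nonneg (h1 s t) (integral_nonneg fun _ => Kah_B0 ha _ s t)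

/-- the interpolating field -/
def KahE (e : I → S → ℝ) (p c s : ℝ) : I ⊕ I → S ⊕ S → ℝ
  | .inl i, .inl y => p * e i y
  | .inr _, .inl _ => 0
  | .inl i, .inr z => c * e i z
  | .inr i, .inr z => s * e i z

theorem Kah_prod (F G : (I → ℝ) → ℝ) :
    ∫ ω, F (fun i => ω (.inl i)) * G (fun i => ω (.inr i)) ∂gm (I ⊕ I) =
      (∫ g, F g ∂gm I) * ∫ g, G g ∂gm I := by
  rw [← integral_prod_mul]
  exact (measurePreserving_sumPiEquivProdPi fun _ : I ⊕ I => gaussianReal 0 1).integral_comp'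
    fun p => F p.1 * G p.2

theorem La_mul (hc : ∀ x y, 0 ≤ cv e x y) (ha : ∀ x, 0 ≤ a x) (hb : ∀ x, 0 ≤ b x) :
    La e a * La e b ≤ La e (a + b) := by
  have hα : ∀ x, 0 ≤ Sum.elim a b x := fun x => by
    rcases x with x | x
    exacts [ha x, hb x]
  choose D hD hD0 using Kah_deriv hα (E := fun θ => KahE e 1 (cos θ) (sin θ))
    (E' := fun θ => KahE e 0 (-sin θ) (cos θ))
    (K := fun i s => |e (Sum.elim id id i) (Sum.elim id id s)|)
    (fun θ i s => by
      rcases i with i | i <;> rcases s with s | s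
      · simpa only [KahE, zero_mul] using hasDerivAt_const θ (1 * e i s)
      · exact (hasDerivAt_cos θ).mul_const _
      · exact hasDerivAt_const θ 0
      · exact (hasDerivAt_sin θ).mul_const _)
    fun θ i s => by
      rcases i with i | i <;> rcases s with s | s <;>
        simp only [KahE, abs_mul, abs_zero, zero_mul, abs_nonneg, abs_neg, Sum.elim_inl,
          Sum.elim_inr, id]
      · exact mul_le_of_le_one_left (abs_nonneg _) (abs_sin_le_one θ)
      · exact mul_le_of_le_one_left (abs_nonneg _) (abs_cos_le_one θ)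
  have hz : ∀ θ s t, ∑ i, KahE e 0 (-sin θ) (cos θ) i s * KahE e 1 (cos θ) (sin θ) i (.inr t) =
      0 := fun θ s t => by
    rcases s with s | s <;> simp only [Fintype.sum_sum_type, KahE, ← sum_add_distrib] <;>
      exact sum_eq_zero fun i _ => by ring
  have h1 := antitoneOn_of_deriv_nonpos (convex_Icc 0 (π / 2))
    (f := fun θ => La (KahE e 1 (cos θ) (sin θ)) (Sum.elim a b))
    (fun θ _ => (hD θ).continuousAt.continuousWithinAt)
    (fun θ _ => (hD θ).differentiableAt.differentiableWithinAt) (fun θ hθ => by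
      rw [(hD θ).deriv]
      have h2 := interior_subset hθ
      have h3 := sin_nonneg_of_nonneg_of_le_pi h2.1 (h2.2.trans (half_le_self pi_pos.le))
      refine hD0 θ (fun s => ?_) fun s t => ?_
      · rcases s with s | s
        · simp [Fintype.sum_sum_type, KahE]
        · exact hz θ _ s
      · rcases t with t | t
        · rcases s with s | s
          · simp [Fintype.sum_sum_type, KahE]
          · have h4 := mul_nonneg h3 (hc s t)
            simp only [cv, mul_sum] at h4
            simp only [Fintype.sum_sum_type, KahE, mul_zero, sum_const_zero, add_zero, one_mul,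
              neg_mul, sum_neg_distrib, neg_nonpos, mul_assoc]
            exact h4
        · exact (hz θ s t).le)
    (Set.left_mem_Icc.2 pi_div_two_pos.le) (Set.right_mem_Icc.2 pi_div_two_pos.le)
    pi_div_two_pos.le
  simp only [cos_zero, sin_zero, cos_pi_div_two, sin_pi_div_two] at h1
  refine le_of_eq_of_le ?_ (h1.trans_eq ?_)
  · rw [La, La, ← Kah_prod]
    refine integral_congr_ae (ae_of_all _ fun ω => ?_)
    simp [Zw, Hf, KahE, ← exp_add, add_comm]
  · have h2 := Kah_prod (fun g => exp (-Zw e (a + b) g)) fun _ => 1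
    rw [integral_const, probReal_univ, one_smul, mul_one] at h2
    refine Eq.trans ?_ h2
    refine integral_congr_ae (ae_of_all _ fun ω => ?_)
    simp [Zw, Hf, KahE, add_mul, sum_add_distrib]

end

end Vale.Agent.P150S
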