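import Vale.Agent.P150.Det

/-! A bottleneck gives a small gap and slow mixing. -/

namespace Vale.Agent.P150S

open Real Finset Vale.Agent.P150

noncomputable section

section Gen
variable {ι : Type} [Fintype ι] [DecidableEq ι] {W f B : (ι → Bool) → ℝ}

omit [Fintype ι] in
theorem Bot_Qw (hW : ∀ x, 0 < W x) (hf : ∀ y, |f y| ≤ 1) (i : ι) (y : ι → Bool) :
    |Qw W i f y| ≤ 1 := by
  have h1 := hW (Function.update y i true)
  have h2 := hW (Function.update y i false)
  have h3 := abs_le.1 (hf (Function.update y i true))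
  have h4 := abs_le.1 (hf (Function.update y i false))
  rw [Qw, abs_div, abs_of_pos (add_pos h1 h2), div_le_one (add_pos h1 h2), abs_le]
  constructor <;> nlinarith [h3.1, h3.2, h4.1, h4.2]

variable [Nonempty ι]

theorem Bot_Pw {F : ι → ℝ} {c : ℝ} (h : ∀ i, |F i| ≤ c) :
    |(∑ i, F i) / Fintype.card ι| ≤ c := by
  rw [abs_div, abs_of_pos card_pos', div_le_iff₀' card_pos']
  refine (abs_sum_le_sum_abs _ _).trans ((sum_le_sum fun i _ => h i).trans_eq ?_)
  rw [sum_const, card_univ, nsmul_eq_mul]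

theorem Bot_iter (hW : ∀ x, 0 < W x) (hf : ∀ y, |f y| ≤ 1) (k : ℕ) (y : ι → Bool) :
    |(Pw W)^[k] f y| ≤ 1 := by
  induction k generalizing y with
  | zero => exact hf y
  | succ k ih =>
    rw [Function.iterate_succ_apply']
    exact Bot_Pw fun i => Bot_Qw hW ih i y

theorem Bot_corr (hW : ∀ x, 0 < W x) (hf : ∀ y, |f y| ≤ 1) (hB : ∀ i y, |Dw W i f y| ≤ 2 * B y)
    (k : ℕ) : Ex W (fun y => f y ^ 2) - 2 * k * Ex W B ≤ Ex W fun y => f y * (Pw W)^[k] f y := by
  induction k with
  | zero => simp [sq]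
  | succ k ih =>
    rw [Function.iterate_succ_apply', Ex_Pw_symm hW]
    have h1 : ∀ y, |f y - Pw W f y| ≤ 2 * B y := fun y => by
      have e : f y - Pw W f y = (∑ i, Dw W i f y) / Fintype.card ι := by
        have := (card_pos' (ι := ι)).ne'
        simp only [Pw, Dw, sum_sub_distrib, sum_const, card_univ, nsmul_eq_mul]
        field_simp
      rw [e]
      exact Bot_Pw fun i => hB i y
    have h2 : Ex W (fun y => f y * (Pw W)^[k] f y - 2 * B y) ≤
        Ex W fun y => Pw W f y * (Pw W)^[k] f y := by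
      refine Ex_mono hW fun y => ?_
      have := (le_abs_self _).trans ((abs_mul (f y - Pw W f y) ((Pw W)^[k] f y)).trans_le
        ((mul_le_of_le_one_right (abs_nonneg _) (Bot_iter hW hf k y)).trans (h1 y)))
      linarith
    rw [Ex_sub, Ex_mul] at h2
    push_cast
    have e : (Ex W fun x => B x) = Ex W B := rfl
    rw [e] at h2
    linarith

theorem Bot_series {Q : ι → Matrix (ι → Bool) (ι → Bool) ℝ}
    (hQ : ∀ i f, (Q i).mulVec f = Qw W i f) (t : ℝ) (s : (ι → Bool) → ℝ) (x : ι → Bool) :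
    HasSum (fun k : ℕ => (k.factorial : ℝ)⁻¹ * ((t * Fintype.card ι) ^ k * (Pw W)^[k] s x))
      (exp (t * Fintype.card ι) * (NormedSpace.exp (t • ∑ i, (Q i - 1))).mulVec s x) := by
  have hn := card_pos' (ι := ι)
  obtain ⟨N, hN⟩ : ∃ N : ℝ, N = Fintype.card ι := ⟨_, rfl⟩
  rw [← hN]
  have e2 : NormedSpace.exp (t • ∑ i, (Q i - 1)) =
      exp (-(t * N)) • NormedSpace.exp (t • ∑ i, Q i) := by
    have a1 : t • ∑ i, (Q i - 1) = Matrix.diagonal (fun _ => -(t * N)) + t • ∑ i, Q i := by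
      rw [sum_sub_distrib, sum_const, card_univ, smul_sub, ← Nat.cast_smul_eq_nsmul ℝ, ← hN,
        smul_smul, ← Matrix.smul_one_eq_diagonal, neg_smul, neg_add_eq_sub]
    rw [a1, Matrix.exp_add_of_commute _ _ (by
      rw [← Matrix.smul_one_eq_diagonal]; exact (Commute.one_left _).smul_left _),
      Matrix.exp_diagonal, show NormedSpace.exp (fun _ : ι → Bool => -(t * N)) =
        fun _ => exp (-(t * N)) from funext fun y => by
          rw [Pi.coe_exp, Real.exp_eq_exp_ℝ], ← Matrix.smul_one_eq_diagonal, smul_mul_assoc,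
      one_mul]
  have e3 : ∀ k, ((t • ∑ i, Q i) ^ k).mulVec s = (t * N) ^ k • (Pw W)^[k] s := fun k => by
    induction k with
    | zero => simp
    | succ k ih =>
      rw [pow_succ', ← Matrix.mulVec_mulVec, ih, Matrix.mulVec_smul, Function.iterate_succ_apply',
        Matrix.smul_mulVec, Matrix.sum_mulVec, pow_succ, mul_smul, mul_smul t]
      refine congrArg _ (congrArg _ (funext fun y => ?_))
      simp only [hQ, Finset.sum_apply, Pi.smul_apply, Pw, smul_eq_mul, hN]
      field_simp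
  have a1 := (hasSum_exp (t • ∑ i, Q i)).map
    (AddMonoidHom.mk' (fun M : Matrix (ι → Bool) (ι → Bool) ℝ => M.mulVec s x)
      fun M M' => by simp [Matrix.add_mulVec])
    (by simp only [AddMonoidHom.mk'_apply, Matrix.mulVec, dotProduct]; fun_prop)
  rw [e2, Matrix.smul_mulVec, Pi.smul_apply, smul_eq_mul, ← mul_assoc, ← exp_add, add_neg_cancel,
    exp_zero, one_mul]
  simpa only [Function.comp_def, AddMonoidHom.mk'_apply, Matrix.smul_mulVec, e3, Pi.smul_apply,
    smul_eq_mul] using a1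

/-- The correlation at time `t`. -/
theorem Bot_kern (hW : ∀ x, 0 < W x) (hf : ∀ y, |f y| ≤ 1) (hB : ∀ i y, |Dw W i f y| ≤ 2 * B y)
    {δ : ℝ} (h0 : 0 ≤ δ) (h1 : Ex W B ≤ δ * ∑ y, W y)
    (h2 : (1 - δ) * ∑ y, W y ≤ Ex W fun y => f y ^ 2) {Q : ι → Matrix (ι → Bool) (ι → Bool) ℝ}
    (hQ : ∀ i f, (Q i).mulVec f = Qw W i f) {t : ℝ} (ht : 0 ≤ t) :
    (2 - δ - exp (2 * δ * (t * Fintype.card ι))) * ∑ y, W y ≤
      Ex W fun y => f y * (NormedSpace.exp (t • ∑ i, (Q i - 1))).mulVec f y := by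
  have hZ := sumW_pos hW
  have a1 := hasSum_sum fun y (_ : y ∈ univ) => (Bot_series hQ t f y).mul_left (W y * f y)
  have hu : 0 ≤ t * Fintype.card ι := mul_nonneg ht (Nat.cast_nonneg _)
  generalize t * Fintype.card ι = u at a1 hu ⊢
  have a2 : ∀ v : ℝ, HasSum (fun k : ℕ => (k.factorial : ℝ)⁻¹ * v ^ k) (exp v) := fun v => by
    rw [Real.exp_eq_exp_ℝ]
    exact NormedSpace.exp_series_hasSum_exp' (𝕂 := ℝ) v
  have a3 := hasSum_le (fun k => ?_) ((((a2 u).mul_right (2 - δ)).sub
    (a2 (u * (1 + 2 * δ)))).mul_right (∑ y, W y)) a1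
  · refine le_of_mul_le_mul_left (le_of_eq_of_le ?_ (a3.trans_eq ?_)) (exp_pos u)
    · rw [show u * (1 + 2 * δ) = u + 2 * δ * u by ring, exp_add]
      ring
    · rw [Ex, mul_sum]
      exact sum_congr rfl fun y _ => by ring
  · have b1 := Bot_corr hW hf hB k
    have b2 : 1 + k * (2 * δ) ≤ (1 + 2 * δ) ^ k := one_add_mul_le_pow (by linarith) k
    have b3 : (2 - δ - (1 + 2 * δ) ^ k) * ∑ y, W y ≤ Ex W fun y => f y * (Pw W)^[k] f y := by
      have b4 := mul_le_mul_of_nonneg_left h1 (by positivity : (0 : ℝ) ≤ 2 * k)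
      nlinarith [mul_le_mul_of_nonneg_right b2 hZ.le]
    have b5 := mul_le_mul_of_nonneg_left b3 (by positivity : 0 ≤ (k.factorial : ℝ)⁻¹ * u ^ k)
    refine le_of_eq_of_le (by rw [mul_pow]; ring) (b5.trans_eq ?_)
    rw [Ex, mul_sum]
    exact sum_congr rfl fun y _ => by ring

end Gen

variable {n : ℕ}

theorem Bot_mix (hn : 0 < n) (β : ℝ) (g : Pair n → ℝ) :
    ∃ t, 0 ≤ t ∧ ∀ y, tv β g t y ≤ 1 / 4 := by
  have : Nonempty (Fin n) := ⟨⟨0, hn⟩⟩
  have hW := isw_pos (Jm β g) fun _ => 0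
  set W := isw (Jm β g) fun _ => 0 with hWd
  set W₀ := isw (fun i j => 0 * Jm β g i j) fun _ => 0 with hW₀
  set e := ∑ y, |log (W y) - log (W₀ y) - 0| with he
  have h1 : AT W (exp (2 * e) * 1) := (AT_zero (Jm β g) fun _ => 0).near (isw_pos _ _) hW
    zero_le_one fun y => single_le_sum (f := fun y => |log (W y) - log (W₀ y) - 0|)
      (fun _ _ => abs_nonneg _) (mem_univ y)
  have h2 : 1 ≤ exp (2 * e) * 1 := by
    rw [mul_one]
    exact one_le_exp (mul_nonneg zero_le_two (sum_nonneg fun _ _ => abs_nonneg _))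
  generalize exp (2 * e) * 1 = A at h1 h2
  set L := ∑ y, |log ((∑ z, W z) / W y)| with hL
  have h3 : 0 ≤ √L := sqrt_nonneg _
  have h4 : 0 ≤ 2 * A * log (8 * √L + 1) :=
    mul_nonneg (by linarith) (log_nonneg (by linarith))
  refine ⟨_, h4, fun y => ?_⟩
  have h5 := tv_le hW h2 h1 y (L := L) ((le_abs_self _).trans (single_le_sum
    (f := fun y => |log ((∑ z, W z) / W y)|) (fun _ _ => abs_nonneg _) (mem_univ y)))
    heat_mulVec h4
  rw [mul_div_cancel_left₀ _ (by linarith), exp_neg, exp_log (by linarith)] at h5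
  have h6 : 4 * √L * (8 * √L + 1)⁻¹ ≤ 1 / 2 := by
    rw [← div_eq_mul_inv, div_le_iff₀ (by linarith)]
    linarith
  simp only [hWd, ← gibbs_eq] at h5
  unfold tv kern gen
  linarith

theorem Bot_update (x y : Conf n) (i : Fin n) (b : Bool) :
    |∑ j, sp (x j) * sp (Function.update y i b j) - ∑ j, sp (x j) * sp (y j)| ≤ 2 := by
  rw [← sum_sub_distrib, sum_eq_single i]
  · rw [Function.update_self]
    cases x i <;> cases y i <;> cases b <;> norm_num [sp]
  · intro j _ hj
    rw [Function.update_of_ne hj, sub_self]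
  · simp

theorem bottleneck {n : ℕ} (hn : 0 < n) (β : ℝ) (g : Pair n → ℝ) (x : Conf n) {δ : ℝ} (h0 : 0 < δ)
    (h1 : δ ≤ 1 / 10)
    (h : ∑ y, (if |∑ i, sp (x i) * sp (y i)| ≤ 2 then gibbs β g y else 0) ≤ δ) :
    gap β g ≤ 8 * n * δ ∧ (∀ t, 0 ≤ t → t ≤ 1 / (8 * n * δ) → ∃ y, 1 / 4 < tv β g t y) ∧
      1 / (8 * n * δ) ≤ tmix β g := by
  have : Nonempty (Fin n) := ⟨⟨0, hn⟩⟩
  have hn' : (0 : ℝ) < n := by exact_mod_cast hn
  have hW := isw_pos (Jm β g) fun _ => 0
  have hZ := sumW_pos hW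
  set W := isw (Jm β g) fun _ => 0 with hWd
  set d : Conf n → ℝ := fun y => ∑ i, sp (x i) * sp (y i) with hd
  set f : Conf n → ℝ := fun y => Real.sign (d y) with hf
  set B : Conf n → ℝ := fun y => if |d y| ≤ 2 then 1 else 0 with hB
  have f1 : ∀ y, |f y| ≤ 1 := fun y => by
    rcases Real.sign_apply_eq (d y) with e | e | e <;> simp [hf, e]
  have hBZ : Ex W B ≤ δ * ∑ y, W y := by
    rw [← div_le_iff₀ hZ, Ex, sum_div]
    refine le_of_eq_of_le (sum_congr rfl fun y _ => ?_) h
    simp only [hB, hd, gibbs_eq]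
    split_ifs <;> simp [hWd]
  have f2 : (1 - δ) * ∑ y, W y ≤ Ex W fun y => f y ^ 2 := by
    have a1 : Ex W (fun y => 1 - B y) ≤ Ex W fun y => f y ^ 2 := by
      refine Ex_mono hW fun y => ?_
      simp only [hB, hf]
      split_ifs with hy
      · rw [sub_self]
        exact sq_nonneg _
      · have : d y ≠ 0 := fun e => hy (by rw [e]; norm_num)
        rcases Real.sign_apply_eq_of_ne_zero _ this with e | e <;> simp [e]
    rw [Ex_sub, Ex_const] at a1
    have e : (Ex W fun x => B x) = Ex W B := rfl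
    rw [e] at a1
    linarith
  have f3 : Ex W f = 0 := by
    have hs : ∀ b, sp (!b) = -sp b := fun b => by cases b <;> simp [sp]
    have hi : Function.Involutive fun (y : Conf n) j => !y j := fun y => by simp
    have a1 := Equiv.sum_comp hi.toPerm fun y => W y * f y
    have a2 : ∀ y : Conf n, W (fun j => !y j) = W y := fun y => by
      simp only [hWd, isw, en, ← sp_eq, hs, mul_neg, neg_mul, neg_neg, zero_mul, neg_zero]
    have a3 : ∀ y : Conf n, f (fun j => !y j) = -f y := fun y => by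
      simp only [hf, hd, hs, mul_neg, sum_neg_distrib, Real.sign_neg]
    simp only [Function.Involutive.coe_toPerm, a2, a3, mul_neg, sum_neg_distrib] at a1
    rw [Ex]
    linarith
  have f4 : ∀ i y, |Dw W i f y| ≤ 2 * B y := fun i y => by
    simp only [hB]
    split_ifs with hy
    · rw [Dw]
      linarith [abs_sub (f y) (Qw W i f y), f1 y, Bot_Qw hW f1 i y]
    · have a1 : ∀ b, f (Function.update y i b) = f y := fun b => by
        have a2 := abs_le.1 (Bot_update x y i b)
        simp only [hf, hd] at hy ⊢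
        rcases lt_abs.1 (not_le.1 hy) with e | e
        · rw [Real.sign_of_pos (by linarith [a2.1]), Real.sign_of_pos (by linarith)]
        · rw [Real.sign_of_neg (by linarith [a2.2]), Real.sign_of_neg (by linarith)]
      rw [Dw, Qw, a1, a1, ← add_mul, mul_div_cancel_left₀ _ (add_pos (hW _) (hW _)).ne']
      simp
  have hav : av W f = 0 := by rw [av, f3, zero_div]
  have hv : 1 - δ ≤ var β g f := by
    rw [var_eq, hav, le_div_iff₀ hZ]
    simpa only [sub_zero] using f2
  have hform : form β g f ≤ 4 * n * δ := by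
    rw [form_eq, div_le_iff₀ hZ, Dir]
    have a1 : ∀ i, (Ex W fun y => Dw W i f y * Dw W i f y) ≤ 4 * (δ * ∑ y, W y) := fun i => by
      refine (Ex_mono hW (g := fun y => 4 * B y) fun y => ?_).trans ?_
      · have a2 := abs_le.1 (f4 i y)
        have a3 : B y * B y = B y := by simp only [hB]; split_ifs <;> simp
        nlinarith [a2.1, a2.2]
      · rw [Ex_mul]
        exact mul_le_mul_of_nonneg_left hBZ (by norm_num)
    refine (sum_le_sum fun i _ => a1 i).trans_eq ?_
    rw [sum_const, card_univ, Fintype.card_fin, nsmul_eq_mul]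
    ring
  have key : ∀ t, 0 ≤ t → t ≤ 1 / (8 * n * δ) → ∃ y, 1 / 4 < tv β g t y := by
    intro t ht ht'
    by_contra hc
    push Not at hc
    have a1 := Bot_kern hW f1 f4 h0.le hBZ f2 heat_mulVec ht
    have a2 : exp (2 * δ * (t * Fintype.card (Fin n))) ≤ 4 / 3 := by
      rw [le_div_iff₀ (by positivity)] at ht'
      rw [Fintype.card_fin]
      have a3 := add_one_le_exp (-(1 / 4 : ℝ))
      refine (exp_le_exp.2 (show _ ≤ (1 / 4 : ℝ) by nlinarith)).trans ?_
      rw [exp_neg, le_inv_comm₀ (by norm_num) (exp_pos _)] at a3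
      linarith
    have a4 : ∀ y, |(kern β g t).mulVec f y| ≤ 1 / 2 := fun y => by
      have e : (kern β g t).mulVec f y = ∑ z, (kern β g t y z - gibbs β g z) * f z := by
        have e1 : ∑ z, gibbs β g z * f z = 0 := by
          rw [← hav, av, Ex, sum_div]
          exact sum_congr rfl fun z _ => by rw [gibbs_eq]; ring
        simp only [sub_mul, sum_sub_distrib, e1, sub_zero]
        rfl
      have a5 := hc y
      rw [e]
      refine (abs_sum_le_sum_abs _ _).trans ((sum_le_sum fun z _ => (abs_mul _ _).trans_le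
        (mul_le_of_le_one_right (abs_nonneg _) (f1 z))).trans ?_)
      unfold tv at a5
      linarith
    have a6 : (Ex W fun y => f y * (kern β g t).mulVec f y) ≤ Ex W fun _ => 1 / 2 :=
      Ex_mono hW fun y => (le_abs_self _).trans ((abs_mul _ _).trans_le
        ((mul_le_of_le_one_left (abs_nonneg _) (f1 y)).trans (a4 y)))
    rw [Ex_const] at a6
    have a7 := le_of_mul_le_mul_right (a1.trans a6) hZ
    linarith
  refine ⟨?_, key, le_csInf (Bot_mix hn β g) fun t ht => ?_⟩
  · have a1 : ∀ r ∈ {r : ℝ | ∃ f : Conf n → ℝ, var β g f ≠ 0 ∧ r = form β g f / var β g f},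
        0 ≤ r := by
      rintro r ⟨F, -, rfl⟩
      rw [var_eq, form_eq]
      exact div_nonneg (div_nonneg (Dir_nonneg hW F) hZ.le)
        (div_nonneg (Ex_nonneg hW fun _ => sq_nonneg _) hZ.le)
    have a2 : 0 < var β g f := by linarith
    refine (csInf_le ⟨_, a1⟩ ⟨f, a2.ne', rfl⟩).trans ?_
    rw [div_le_iff₀ a2]
    have a3 : 0 < (n : ℝ) * δ := mul_pos hn' h0
    nlinarith
  · by_contra hc
    obtain ⟨y, hy⟩ := key t ht.1 (not_le.1 hc).le
    exact absurd (ht.2 y) (not_le.2 hy)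

end

end Vale.Agent.P150S
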