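import Vale.Agent.P146M.IBP
import Vale.Agent.P150.Gauss
import Vale.Agent.Lib.PrekopaLeindler

/-! Gaussian fields on a finite set and Laplace transforms of their partition functions. -/

namespace Vale.Agent.P150S

open MeasureTheory ProbabilityTheory Real Finset Vale.Agent.P150

noncomputable section

variable {I S : Type} [Fintype I] [Fintype S]

/-- the Gaussian field -/
def Hf (e : I → S → ℝ) (g : I → ℝ) (x : S) : ℝ := ∑ i, g i * e i x

/-- its covariance -/
def cv (e : I → S → ℝ) (x y : S) : ℝ := ∑ i, e i x * e i y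

/-- weighted partition function -/
def Zw (e : I → S → ℝ) (a : S → ℝ) (g : I → ℝ) : ℝ := ∑ x, a x * exp (Hf e g x)

/-- Laplace transform of the partition function -/
def La (e : I → S → ℝ) (a : S → ℝ) : ℝ := ∫ g, exp (-Zw e a g) ∂gm I

theorem gm_density (I : Type) [Fintype I] : gm I =
    volume.withDensity fun x => ENNReal.ofReal (∏ i, gaussianPDFReal 0 1 (x i)) := by
  refine Measure.pi_eq fun s hs => ?_
  have hi : ∀ i, Integrable (gaussianPDFReal 0 1) (volume.restrict (s i)) := fun i =>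
    (integrable_gaussianPDFReal 0 1).integrableOn
  rw [withDensity_apply _ (MeasurableSet.univ_pi hs), volume_pi, Measure.restrict_pi_pi,
    ← ofReal_integral_eq_lintegral_ofReal (Integrable.fintype_prod hi)
      (ae_of_all _ fun x => prod_nonneg fun i _ => gaussianPDFReal_nonneg _ _ _),
    integral_fintype_prod_eq_prod, ENNReal.ofReal_prod_of_nonneg
      fun i _ => integral_nonneg fun x => gaussianPDFReal_nonneg _ _ _]
  exact prod_congr rfl fun i _ => (gaussianReal_apply_eq_integral 0 one_ne_zero _).symm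

theorem gm_pdf (x : I → ℝ) : ∏ i, gaussianPDFReal 0 1 (x i) =
    (√(2 * π))⁻¹ ^ Fintype.card I * exp (-(∑ i, x i ^ 2) / 2) := by
  simp only [gaussianPDFReal, NNReal.coe_one, mul_one, sub_zero]
  rw [prod_mul_distrib, prod_const, card_univ, ← exp_sum, ← sum_div, sum_neg_distrib]

variable {e : I → S → ℝ} {a b : S → ℝ}

omit [Fintype S] in
@[fun_prop] theorem cont_Hf (e : I → S → ℝ) (x : S) : Continuous fun g => Hf e g x := by
  unfold Hf
  fun_prop

@[fun_prop] theorem cont_Zw (e : I → S → ℝ) (a : S → ℝ) : Continuous (Zw e a) := by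
  unfold Zw
  fun_prop

theorem Zw_nonneg (ha : ∀ x, 0 ≤ a x) (g : I → ℝ) : 0 ≤ Zw e a g :=
  sum_nonneg fun x _ => mul_nonneg (ha x) (exp_pos _).le

theorem Zw_add (g : I → ℝ) : Zw e (a + b) g = Zw e a g + Zw e b g := by
  simp only [Zw, Pi.add_apply, add_mul, sum_add_distrib]

theorem Zw_smul (s : ℝ) (g : I → ℝ) : Zw e (s • a) g = s * Zw e a g := by
  simp only [Zw, Pi.smul_apply, smul_eq_mul, mul_sum, mul_assoc]

theorem Zw_mono (h : ∀ x, a x ≤ b x) (g : I → ℝ) : Zw e a g ≤ Zw e b g :=
  sum_le_sum fun x _ => mul_le_mul_of_nonneg_right (h x) (exp_pos _).le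

theorem La_int (ha : ∀ x, 0 ≤ a x) : Integrable (fun g => exp (-Zw e a g)) (gm I) :=
  Integrable.of_bound (by fun_prop) 1 (ae_of_all _ fun g => by
    rw [Real.norm_eq_abs, abs_exp]
    exact exp_le_one_iff.2 (neg_nonpos.2 (Zw_nonneg ha g)))

theorem La_pos (ha : ∀ x, 0 ≤ a x) : 0 < La e a := integral_exp_pos (La_int ha)

theorem La_anti (ha : ∀ x, 0 ≤ a x) (h : ∀ x, a x ≤ b x) : La e b ≤ La e a :=
  integral_mono (La_int fun x => (ha x).trans (h x)) (La_int ha) fun g =>
    exp_le_exp.2 (neg_le_neg (Zw_mono h g))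

end

end Vale.Agent.P150S
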