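import Vale.Agent.P150S.Defs

/-! Log concavity (Prekopa-Leindler) and the Cameron-Martin shift. -/

namespace Vale.Agent.P150S

open MeasureTheory ProbabilityTheory Real Finset Vale.Agent.P150

noncomputable section

variable {I S : Type} [Fintype I] [Fintype S] {e : I → S → ℝ} {a b : S → ℝ}

theorem LogC_meas : Measurable fun x : I → ℝ =>
    ENNReal.ofReal (∏ i, gaussianPDFReal 0 1 (x i)) := by
  simp only [gm_pdf]
  fun_prop

theorem LogC_La (ha : ∀ x, 0 ≤ a x) : ENNReal.ofReal (La e a) = ∫⁻ g, ENNReal.ofReal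
    (exp (log ((√(2 * π))⁻¹ ^ Fintype.card I) - (∑ i, g i ^ 2) / 2 - Zw e a g)) := by
  rw [La, ofReal_integral_eq_lintegral_ofReal (La_int ha) (ae_of_all _ fun g => (exp_pos _).le),
    gm_density, lintegral_withDensity_eq_lintegral_mul _ LogC_meas (by fun_prop)]
  refine lintegral_congr fun g => ?_
  rw [Pi.mul_apply, gm_pdf, ← ENNReal.ofReal_mul (by positivity), sub_eq_add_neg, sub_eq_add_neg,
    exp_add, exp_add, exp_log (by positivity), neg_div]

theorem LogC_int (f : (I → ℝ) → ℝ) : ∫ g, f g ∂gm I =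
    ∫ g, (√(2 * π))⁻¹ ^ Fintype.card I * exp (-(∑ i, g i ^ 2) / 2) * f g := by
  rw [gm_density, integral_withDensity_eq_integral_toReal_smul LogC_meas
    (ae_of_all _ fun _ => ENNReal.ofReal_lt_top)]
  refine integral_congr_ae (ae_of_all _ fun g => ?_)
  simp only [gm_pdf]
  rw [ENNReal.toReal_ofReal (by positivity), smul_eq_mul]

/-- `Vale.Agent.Lib.PL.prekopa_leindler` for Lebesgue measure on `I → ℝ` with `gm_density`, `gm_pdf`
(pattern: `maurey` in `P146L/Neg.lean`). Pointwise: `Hf` is linear in `g`,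
`exp (p u + q v) ≤ p exp u + q exp v`, `s1 ^ p * s2 ^ q * exp (p u + q v) ≤ p s1 exp u + q s2 exp v`
(`geom_mean_le_arith_mean2_weighted`), and `|p x + q y| ^ 2 ≤ p |x| ^ 2 + q |y| ^ 2`. -/
theorem La_logc (ha : ∀ x, 0 ≤ a x) (hb : ∀ x, 0 ≤ b x) {p q s1 s2 : ℝ} (hp : 0 < p) (hq : 0 < q)
    (hpq : p + q = 1) (h1 : 0 < s1) (h2 : 0 < s2) :
    La e (a + s1 • b) ^ p * La e (a + s2 • b) ^ q ≤ La e (a + (s1 ^ p * s2 ^ q) • b) := by
  have hs : ∀ s : ℝ, 0 ≤ s → ∀ x, 0 ≤ (a + s • b) x := fun s hs x =>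
    add_nonneg (ha x) (mul_nonneg hs (hb x))
  have k1 := hs s1 h1.le
  have k2 := hs s2 h2.le
  have k3 := hs (s1 ^ p * s2 ^ q) (by positivity)
  rw [← ENNReal.ofReal_le_ofReal_iff (La_pos k3).le,
    ENNReal.ofReal_mul (rpow_nonneg (La_pos k1).le _),
    ← ENNReal.ofReal_rpow_of_nonneg (La_pos k1).le hp.le,
    ← ENNReal.ofReal_rpow_of_nonneg (La_pos k2).le hq.le, LogC_La k1, LogC_La k2, LogC_La k3]
  refine Vale.Agent.Lib.PL.prekopa_leindler volume hp hq hpq (by fun_prop) (by fun_prop)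
    (by fun_prop) fun x y => ?_
  rw [ENNReal.ofReal_rpow_of_nonneg (exp_pos _).le hp.le,
    ENNReal.ofReal_rpow_of_nonneg (exp_pos _).le hq.le, ← exp_mul, ← exp_mul,
    ← ENNReal.ofReal_mul (exp_pos _).le, ← exp_add]
  refine ENNReal.ofReal_le_ofReal (exp_le_exp.2 ?_)
  have e1 : ∑ i, (p • x + q • y) i ^ 2 ≤ p * ∑ i, x i ^ 2 + q * ∑ i, y i ^ 2 := by
    rw [mul_sum, mul_sum, ← sum_add_distrib]
    refine sum_le_sum fun i _ => ?_
    simp only [Pi.add_apply, Pi.smul_apply, smul_eq_mul]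
    have : q = 1 - p := by linarith
    subst this
    nlinarith [mul_nonneg (mul_pos hp hq).le (sq_nonneg (x i - y i))]
  have e2 : Zw e (a + (s1 ^ p * s2 ^ q) • b) (p • x + q • y) ≤
      p * Zw e (a + s1 • b) x + q * Zw e (a + s2 • b) y := by
    rw [Zw, Zw, Zw, mul_sum, mul_sum, ← sum_add_distrib]
    refine sum_le_sum fun z _ => ?_
    have e3 : Hf e (p • x + q • y) z = Hf e x z * p + Hf e y z * q := by
      simp only [Hf, sum_mul, ← sum_add_distrib, Pi.add_apply, Pi.smul_apply, smul_eq_mul]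
      exact sum_congr rfl fun i _ => by ring
    have e4 := geom_mean_le_arith_mean2_weighted hp.le hq.le (exp_pos (Hf e x z)).le
      (exp_pos (Hf e y z)).le hpq
    have e5 := geom_mean_le_arith_mean2_weighted hp.le hq.le
      (mul_pos h1 (exp_pos (Hf e x z))).le (mul_pos h2 (exp_pos (Hf e y z))).le hpq
    rw [mul_rpow h1.le (exp_pos _).le, mul_rpow h2.le (exp_pos _).le] at e5
    rw [e3, exp_add, exp_mul, exp_mul]
    simp only [Pi.add_apply, Pi.smul_apply, smul_eq_mul]
    nlinarith [mul_le_mul_of_nonneg_left e4 (ha z), mul_le_mul_of_nonneg_left e5 (hb z)]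
  have e6 : ∀ L : ℝ, L * p + L * q = L := fun L => by rw [← mul_add, hpq, mul_one]
  linarith [e6 (log ((√(2 * π))⁻¹ ^ Fintype.card I))]

theorem shift_int (x : S) (ha : ∀ x, 0 ≤ a x) :
    Integrable (fun g => exp (Hf e g x) * exp (-Zw e a g)) (gm I) := by
  refine (Integrable.fintype_prod (f := fun i (t : ℝ) => exp (e i x * t))
    fun i => integrable_exp_mul_gaussianReal (μ := 0) (v := 1) (e i x)).mono' (by fun_prop)
    (ae_of_all _ fun g => ?_)
  rw [Real.norm_eq_abs, abs_of_pos (by positivity), ← exp_sum, Hf]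
  simp only [mul_comm (g _)]
  exact mul_le_of_le_one_right (exp_pos _).le
    (exp_le_one_iff.2 (neg_nonpos.2 (Zw_nonneg ha g)))

/-- `gm_density`, translation invariance of Lebesgue measure (`integral_add_right_eq_self`) by the vector
`v i = e i x`: `Hf e (g + v) z = Hf e g z + cv e x z` and
`φ (g + v) * exp (Hf e (g + v) x) = φ g * exp (cv e x x / 2)`. -/
theorem La_shift (x : S) (ha : ∀ x, 0 ≤ a x) :
    ∫ g, exp (Hf e g x) * exp (-Zw e a g) ∂gm I =
      exp (cv e x x / 2) * La e fun z => a z * exp (cv e x z) := by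
  have _ := ha
  rw [La, LogC_int, LogC_int, ← integral_const_mul,
    ← integral_add_right_eq_self _ fun i => e i x]
  refine integral_congr_ae (ae_of_all _ fun g => ?_)
  have e1 : ∀ z, Hf e (g + fun i => e i x) z = Hf e g z + cv e x z := fun z => by
    simp only [Hf, cv, Pi.add_apply, add_mul, sum_add_distrib]
  have e2 : Zw e a (g + fun i => e i x) = Zw e (fun z => a z * exp (cv e x z)) g := by
    simp only [Zw, e1, exp_add]
    exact sum_congr rfl fun z _ => by ring
  have e3 : ∑ i, (g + fun i => e i x) i ^ 2 = ∑ i, g i ^ 2 + 2 * Hf e g x + cv e x x := by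
    simp only [Hf, cv, Pi.add_apply, mul_sum, ← sum_add_distrib]
    exact sum_congr rfl fun i _ => by ring
  simp only [e1, e2, e3]
  have e4 : exp (-(∑ i, g i ^ 2 + 2 * Hf e g x + cv e x x) / 2) * exp (Hf e g x + cv e x x) =
      exp (cv e x x / 2) * exp (-(∑ i, g i ^ 2) / 2) := by
    rw [← exp_add, ← exp_add]
    congr 1
    ring
  linear_combination (√(2 * π))⁻¹ ^ Fintype.card I *
    exp (-Zw e (fun z => a z * exp (cv e x z)) g) * e4

end

end Vale.Agent.P150S
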