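import Vale.Agent.P150S.Win

/-! From anti-concentration of the free energy to a small orthogonal mass. -/

namespace Vale.Agent.P150S

open MeasureTheory ProbabilityTheory Real Finset Vale.Agent.P150

noncomputable section

theorem mp_some (I : Type) [Fintype I] :
    MeasurePreserving (fun (g : Option I → ℝ) i => g (some i)) (gm (Option I)) (gm I) :=
  mp_gm (by fun_prop) fun θ => ⟨fun o => o.elim 0 θ, fun x => by simp [Fintype.sum_option],
    by simp [Fintype.sum_option]⟩

theorem tail_none {η : ℝ} (h0 : 0 < η) (I : Type) [Fintype I] :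
    (gm (Option I)).real {g | √(512 / η) < |g none|} ≤ η / 16 := by
  have h1 := chi_one (α := Option I) none (√(512 / η)) 1
  refine (measureReal_mono fun g hg => ?_).trans
    (ENNReal.toReal_le_of_le_ofReal (by positivity) (h1.trans (ENNReal.ofReal_le_ofReal ?_)))
  · have h2 := pow_le_pow_left₀ (sqrt_nonneg _) (le_of_lt hg) 2
    simpa using h2
  · rw [sq_sqrt (by positivity), exp_neg]
    have h2 := add_one_le_exp (512 / η / 16 * (1 : ℕ))
    have h3 : 32 / η ≤ exp (512 / η / 16 * (1 : ℕ)) := by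
      have : 512 / η / 16 * (1 : ℕ) = 32 / η := by push_cast; ring
      linarith
    have h4 := inv_anti₀ (by positivity) h3
    rw [inv_div] at h4
    linarith

theorem small_prob {η κ C0 : ℝ} (h0 : 0 < η) (h1 : η ≤ 1) (hκ : 0 ≤ κ) : ∃ B : ℝ, 1 ≤ B ∧
    ∀ (I S : Type) [Fintype I] [Fintype S] [Nonempty S] (e : I → S → ℝ) (O : S → S → Prop)
      [DecidableRel O], (∀ x y, 0 ≤ κ ^ 2 + cv e x y) → (∀ x y, O x y → κ ^ 2 + cv e x y ≤ C0) →
      ∀ r K : ℝ, 1 ≤ K → (gm I).real {g | log (Zw e 1 g) ≤ r} ≤ η →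
      η / 8 ≤ (gm I).real {g | log (Zw e 1 g) ≤ r - B * K} →
      (gm I).real {g | ∀ x, exp (-K) * Zw e 1 g ≤ Zw e (ind O x) g} ≤ 3 * η := by
  set θ := exp (-1) * (η / 16) with hθ
  have θ0 : 0 < θ := by positivity
  obtain ⟨N, hN⟩ := exists_nat_ge (2 * exp 5 * (-log θ) / η)
  set q := κ * √(512 / η) with hq
  have q0 : 0 ≤ q := by positivity
  have C1 := abs_nonneg C0
  have N0 : (0 : ℝ) ≤ N := Nat.cast_nonneg N
  refine ⟨2 * q + 3 * (N + 1) + |C0|, by linarith, fun I S _ _ _ e O _ hc hO r K hK p1 p2 => ?_⟩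
  set e' : Option I → S → ℝ := fun o => o.elim (fun _ => κ) e with he'
  have c1 : ∀ x y, cv e' x y = κ ^ 2 + cv e x y := fun x y => by
    simp [cv, he', Fintype.sum_option, sq]
  have z1 : ∀ a g, Zw e' a g = exp (κ * g none) * Zw e a fun i => g (some i) := fun a g => by
    simp only [Zw, Hf, he', Fintype.sum_option, Option.elim, exp_add, mul_sum]
    exact sum_congr rfl fun x _ => by rw [mul_comm (g none)]; ring
  have zp : ∀ g, 0 < Zw e 1 g := fun g =>
    sum_pos (fun x _ => mul_pos one_pos (exp_pos _)) univ_nonempty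
  have tr : ∀ A : Set (I → ℝ), MeasurableSet A →
      (gm (Option I)).real {g | (fun i => g (some i)) ∈ A} = (gm I).real A := fun A hA =>
    (mp_some I).measureReal_preimage hA.nullMeasurableSet
  have ms : ∀ s : ℝ, MeasurableSet {g | log (Zw e 1 g) ≤ s} := fun s =>
    measurableSet_le (cont_Zw e 1).measurable.log measurable_const
  have tq : ∀ g : Option I → ℝ, ¬√(512 / η) < |g none| → |κ * g none| ≤ q := fun g hg => by
    rw [abs_mul, abs_of_nonneg hκ]
    exact mul_le_mul_of_nonneg_left (not_lt.1 hg) hκ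
  have t1 := tail_none h0 I
  set s := exp (q - r) * (3 / exp (-K)) ^ (N + 1) * exp C0 with hs
  have s0 : 0 < s := by positivity
  have l1 : θ ≤ La e' fun _ => s := by
    have a1 := mul_meas_ge_le_integral_of_nonneg (μ := gm (Option I))
      (f := fun g => exp (-Zw e' (fun _ => s) g)) (ae_of_all _ fun g => (exp_pos _).le)
      (La_int fun _ => s0.le) (exp (-1))
    refine le_trans (mul_le_mul_of_nonneg_left ?_ (exp_pos _).le) a1
    rw [← tr _ (ms _)] at p2
    have a2 := p2.trans ((measureReal_mono (s₂ := {g | exp (-1) ≤ exp (-Zw e' (fun _ => s) g)} ∪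
      {g | √(512 / η) < |g none|}) fun g hg => ?_).trans (measureReal_union_le _ _))
    · linarith
    by_cases h : √(512 / η) < |g none|
    · exact Or.inr h
    refine Or.inl (exp_le_exp.2 (neg_le_neg ?_))
    have a3 : Zw e' (fun _ => s) g = s * Zw e' 1 g := by
      simp only [Zw, Pi.one_apply, one_mul, mul_sum]
    have a4 : (3 / exp (-K)) ^ (N + 1) ≤ exp ((N + 1) * (2 + K)) := by
      rw [← Nat.cast_add_one, exp_nat_mul]
      refine pow_le_pow_left₀ (by positivity) ?_ _
      rw [exp_neg, div_inv_eq_mul, exp_add]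
      exact mul_le_mul_of_nonneg_right (by linarith [add_one_le_exp 2]) (exp_pos _).le
    have a5 : s ≤ exp (q - r) * exp ((N + 1) * (2 + K)) * exp C0 := by rw [hs]; gcongr
    rw [a3, z1, ← exp_log (zp _), ← exp_add]
    refine (mul_le_mul_of_nonneg_right a5 (exp_pos _).le).trans ?_
    rw [← exp_add, ← exp_add, ← exp_add, exp_le_one_iff]
    have a6 : log (Zw e 1 fun i => g (some i)) ≤ r - (2 * q + 3 * (N + 1) + |C0|) * K := hg
    have a7 := (abs_le.1 (tq g h)).2
    nlinarith [le_abs_self C0, mul_le_mul_of_nonneg_left hK q0, mul_le_mul_of_nonneg_left hK C1,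
      mul_le_mul_of_nonneg_left hK N0]
  have w1 := window (e := e') (fun x y => c1 x y ▸ hc x y) O (fun x y h => c1 x y ▸ hO x y h) N
    (exp_pos (-K)) (exp_le_one_iff.2 (by linarith)) θ0 (exp_pos (q - r)) l1
  have w2 : 2 * exp 5 * (-log θ / (N + 1)) ≤ η := by
    rw [← mul_div_assoc, div_le_iff₀ (by positivity)]
    rw [div_le_iff₀ h0] at hN
    linarith
  rw [← tr _ (ms _)] at p1
  rw [← tr]
  · refine ((measureReal_mono (s₂ := ({g | (∀ x, exp (-K) * Zw e' 1 g ≤ Zw e' (ind O x) g) ∧
      1 / exp (q - r) ≤ Zw e' 1 g} ∪ {g | (fun i => g (some i)) ∈ {g | log (Zw e 1 g) ≤ r}}) ∪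
      {g | √(512 / η) < |g none|}) fun g hg => ?_).trans ((measureReal_union_le _ _).trans
      (add_le_add_left (measureReal_union_le _ _) _))).trans (by linarith)
    by_cases h : √(512 / η) < |g none|
    · exact Or.inr h
    by_cases h' : log (Zw e 1 fun i => g (some i)) ≤ r
    · exact Or.inl (Or.inr h')
    refine Or.inl (Or.inl ⟨fun x => ?_, ?_⟩)
    · rw [z1, z1, mul_left_comm]
      exact mul_le_mul_of_nonneg_left (hg x) (exp_pos _).le
    · rw [z1, ← exp_log (zp _), ← exp_add, one_div, ← exp_neg, exp_le_exp]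
      linarith [(abs_le.1 (tq g h)).1]
  · rw [Set.setOf_forall]
    exact MeasurableSet.iInter fun x => measurableSet_le (by fun_prop) (by fun_prop)

end

end Vale.Agent.P150S
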