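import Vale.Agent.P150S.Kah
import Vale.Agent.P150S.LogC

/-! The mass of the configurations orthogonal to a Gibbs sample is small. -/

namespace Vale.Agent.P150S

open MeasureTheory ProbabilityTheory Real Finset Vale.Agent.P150 Filter Topology

noncomputable section

variable {I S : Type} [Fintype I] [Fintype S] {e : I → S → ℝ}

/-- indicator weight -/
def ind (O : S → S → Prop) [DecidableRel O] (x : S) : S → ℝ := fun y => if O x y then 1 else 0

omit [Fintype S] in
theorem ind_nonneg (O : S → S → Prop) [DecidableRel O] (x y : S) : 0 ≤ ind O x y := by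
  unfold ind
  split_ifs <;> norm_num

omit [Fintype S] in
theorem ind_le (O : S → S → Prop) [DecidableRel O] (x y : S) : ind O x y ≤ 1 := by
  unfold ind
  split_ifs <;> norm_num

/-- the three point estimate for one configuration and one level -/
theorem one_level (hc : ∀ x y, 0 ≤ cv e x y) (O : S → S → Prop) [DecidableRel O] {C0 : ℝ}
    (hO : ∀ x y, O x y → cv e x y ≤ C0) {D θ l : ℝ} (N : ℕ) (hD : 1 ≤ D) (hθ : 0 < θ) (hl : 0 < l)
    (h : θ ≤ La e fun _ => l * D ^ (N + 1) * exp C0) (x : S) :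
    (∫ g, exp (Hf e g x) * exp (-Zw e ((fun _ => l) + l • ind O x) g) ∂gm I) -
      (∫ g, exp (Hf e g x) * exp (-Zw e ((fun _ => l) + (l * D) • ind O x) g) ∂gm I) ≤
      -log θ / (N + 1) * ∫ g, exp (Hf e g x) * exp (-Zw e (fun _ => l) g) ∂gm I := by
  have D0 : 0 < D := by linarith
  set a : S → ℝ := fun z => l * exp (cv e x z) with ha
  set b : S → ℝ := fun z => ind O x z * exp (cv e x z) with hb
  have a0 : ∀ z, 0 ≤ a z := fun z => by positivity
  have b0 : ∀ z, 0 ≤ b z := fun z => mul_nonneg (ind_nonneg O x z) (exp_pos _).le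
  have nn : ∀ s : ℝ, 0 ≤ s → ∀ z, 0 ≤ ((fun _ => l) + s • ind O x : S → ℝ) z := fun s hs z =>
    add_nonneg hl.le (mul_nonneg hs (ind_nonneg O x z))
  have sh : ∀ s : ℝ, 0 ≤ s → ∫ g, exp (Hf e g x) * exp (-Zw e ((fun _ => l) + s • ind O x) g) ∂gm I =
      exp (cv e x x / 2) * La e (a + s • b) := fun s hs => by
    rw [La_shift x (nn s hs)]
    congr 2
    funext z
    simp only [ha, hb, Pi.add_apply, Pi.smul_apply, smul_eq_mul]
    ring
  rw [sh _ hl.le, sh _ (by positivity), La_shift x fun _ => hl.le, ← mul_sub, mul_left_comm]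
  refine mul_le_mul_of_nonneg_left ?_ (exp_pos _).le
  have ab : ∀ s : ℝ, 0 ≤ s → ∀ z, 0 ≤ (a + s • b) z := fun s hs z =>
    add_nonneg (a0 z) (mul_nonneg hs (b0 z))
  have N1 : (0 : ℝ) < N + 1 := by positivity
  have m1 : La e (a + l • b) ≤ La e a :=
    La_anti a0 fun z => le_add_of_nonneg_right (mul_nonneg hl.le (b0 z))
  have p1 := La_pos (e := e) (ab l hl.le)
  have m2 : θ * La e (a + l • b) ≤ La e (a + (l * D ^ (N + 1)) • b) := by
    have s0 : 0 ≤ l * D ^ (N + 1) := by positivity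
    have h1 := La_mul hc a0 (b := (l * D ^ (N + 1)) • b) fun z => mul_nonneg s0 (b0 z)
    have h2 : θ ≤ La e ((l * D ^ (N + 1)) • b) := by
      refine h.trans (La_anti (fun z => mul_nonneg s0 (b0 z)) fun z => ?_)
      refine mul_le_mul_of_nonneg_left ?_ s0
      simp only [hb, ind]
      split_ifs with hz
      · rw [one_mul]
        exact exp_le_exp.2 (hO x z hz)
      · rw [zero_mul]
        exact (exp_pos _).le
    calc θ * La e (a + l • b) ≤ La e ((l * D ^ (N + 1)) • b) * La e a :=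
          mul_le_mul h2 m1 p1.le (hθ.le.trans h2)
      _ ≤ _ := by rw [mul_comm]; exact h1
  have θ1 : θ ≤ 1 := by
    have h1 : La e (fun _ => l * D ^ (N + 1) * exp C0) ≤ La e fun _ => 0 :=
      La_anti (fun _ => le_rfl) fun _ => by positivity
    have h2 : La e (fun _ => 0) = 1 := by simp [La, Zw]
    linarith
  have key : θ ^ (1 / (N + 1) : ℝ) * La e (a + l • b) ≤ La e (a + (l * D) • b) := by
    rcases Nat.eq_zero_or_pos N with rfl | hN
    · simpa using m2
    have N0 : (0 : ℝ) < N := by exact_mod_cast hN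
    have h1 := La_logc (e := e) a0 b0 (p := N / (N + 1)) (q := 1 / (N + 1)) (s1 := l)
      (s2 := l * D ^ (N + 1)) (by positivity) (by positivity) (by field_simp) hl (by positivity)
    have e1 : l ^ (N / (N + 1) : ℝ) * (l * D ^ (N + 1)) ^ (1 / (N + 1) : ℝ) = l * D := by
      rw [mul_rpow hl.le (by positivity), ← mul_assoc, ← rpow_add hl, ← rpow_natCast D,
        ← rpow_mul D0.le]
      push_cast
      rw [show (N / (N + 1) + 1 / (N + 1) : ℝ) = 1 by field_simp,
        show ((N + 1) * (1 / (N + 1)) : ℝ) = 1 by field_simp, rpow_one, rpow_one]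
    rw [e1] at h1
    refine le_trans ?_ h1
    have h2 := rpow_le_rpow (by positivity) m2 (by positivity : (0 : ℝ) ≤ 1 / (N + 1))
    rw [mul_rpow hθ.le p1.le] at h2
    refine le_trans (le_of_eq ?_) (mul_le_mul_of_nonneg_left h2 (by positivity))
    rw [mul_left_comm, ← rpow_add p1, show (N / (N + 1) + 1 / (N + 1) : ℝ) = 1 by field_simp,
      rpow_one]
  have h3 : 1 + log θ / (N + 1) ≤ θ ^ (1 / (N + 1) : ℝ) := by
    rw [rpow_def_of_pos hθ, add_comm, mul_one_div]
    exact add_one_le_exp _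
  have h4 : 0 ≤ -log θ / (N + 1) := div_nonneg (neg_nonneg.2 (log_nonpos hθ.le θ1)) N1.le
  have h5 := mul_le_mul_of_nonneg_right h3 p1.le
  have h6 := mul_le_mul_of_nonneg_left m1 h4
  rw [neg_div] at h4 h6 ⊢
  nlinarith

theorem tele (Z l : ℝ) (M : ℕ) (hZ : 0 ≤ Z) (hl : 0 < l) :
    ∑ k ∈ range M, l / 2 ^ k * Z * exp (-(l / 2 ^ k * Z)) ≤ 2 := by
  have h : ∀ M : ℕ, ∑ k ∈ range M, l / 2 ^ k * Z * exp (-(l / 2 ^ k * Z)) ≤
      2 * exp (-(l / 2 ^ M * Z)) := fun M => by
    induction M with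
    | zero => simp; positivity
    | succ M ih =>
      rw [sum_range_succ]
      set u := l / 2 ^ M * Z with hu
      have e1 : l / 2 ^ (M + 1) * Z = u / 2 := by rw [hu, pow_succ]; field_simp
      have e2 : exp (-(u / 2)) = exp (-u) * exp (u / 2) := by rw [← exp_add]; congr 1; ring
      have e3 := mul_le_mul_of_nonneg_left (add_one_le_exp (u / 2)) (exp_pos (-u)).le
      rw [e1, e2]
      nlinarith
  refine (h M).trans ?_
  have : exp (-(l / 2 ^ M * Z)) ≤ 1 := exp_le_one_iff.2 (neg_nonpos.2 (by positivity))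
  linarith

theorem window (hc : ∀ x y, 0 ≤ cv e x y) (O : S → S → Prop) [DecidableRel O] {C0 : ℝ}
    (hO : ∀ x y, O x y → cv e x y ≤ C0) {δ θ l : ℝ} (N : ℕ) (hδ : 0 < δ) (hδ1 : δ ≤ 1) (hθ : 0 < θ)
    (hl : 0 < l) (h : θ ≤ La e fun _ => l * (3 / δ) ^ (N + 1) * exp C0) :
    (gm I).real {g | (∀ x, δ * Zw e 1 g ≤ Zw e (ind O x) g) ∧ 1 / l ≤ Zw e 1 g} ≤
      2 * exp 5 * (-log θ / (N + 1)) := by
  have hD : 1 ≤ 3 / δ := by rw [one_le_div hδ]; linarith
  have lk : ∀ k : ℕ, 0 < l / 2 ^ k := fun k => by positivity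
  have nn : ∀ (k : ℕ) (x : S) (s : ℝ), 0 ≤ s → ∀ z,
      0 ≤ ((fun _ => l / 2 ^ k) + s • ind O x : S → ℝ) z := fun k x s hs z =>
    add_nonneg (lk k).le (mul_nonneg hs (ind_nonneg O x z))
  have zc : ∀ (s : ℝ) g, Zw e (fun _ => s) g = s * Zw e 1 g := fun s g => by
    simp only [Zw, Pi.one_apply, one_mul, mul_sum]
  set φ : ℕ → S → (I → ℝ) → ℝ := fun k x g => l / 2 ^ k *
    (exp (Hf e g x) * exp (-Zw e ((fun _ => l / 2 ^ k) + (l / 2 ^ k) • ind O x) g) -
      exp (Hf e g x) * exp (-Zw e ((fun _ => l / 2 ^ k) + (l / 2 ^ k * (3 / δ)) • ind O x) g))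
    with hφ
  have i1 : ∀ k x, Integrable (φ k x) (gm I) := fun k x =>
    ((shift_int x (nn k x _ (lk k).le)).sub
      (shift_int x (nn k x _ (by have := lk k; positivity)))).const_mul _
  have φ0 : ∀ k x g, 0 ≤ φ k x g := fun k x g => by
    refine mul_nonneg (lk k).le (sub_nonneg.2 (mul_le_mul_of_nonneg_left (exp_le_exp.2
      (neg_le_neg (Zw_mono (fun z => ?_) g))) (exp_pos _).le))
    refine add_le_add_right (mul_le_mul_of_nonneg_right ?_ (ind_nonneg O x z)) _
    exact le_mul_of_one_le_right (lk k).le hD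
  have θ1 : θ ≤ 1 := by
    have h1 : La e (fun _ => l * (3 / δ) ^ (N + 1) * exp C0) ≤ La e fun _ => 0 :=
      La_anti (fun _ => le_rfl) fun _ => by positivity
    have h2 : La e (fun _ => 0) = 1 := by simp [La, Zw]
    linarith
  have c0 : 0 ≤ -log θ / (N + 1) := div_nonneg (neg_nonneg.2 (log_nonpos hθ.le θ1)) (by positivity)
  have b1 : ∀ M : ℕ, ∫ g, ∑ k ∈ range M, ∑ x, φ k x g ∂gm I ≤ 2 * (-log θ / (N + 1)) := fun M => by
    have i2 : ∀ (k : ℕ) (x : S), Integrable (fun g => l / 2 ^ k *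
        (exp (Hf e g x) * exp (-Zw e (fun _ => l / 2 ^ k) g))) (gm I) := fun k x =>
      (shift_int x fun _ => (lk k).le).const_mul _
    have h1 : ∀ k x, ∫ g, φ k x g ∂gm I ≤ -log θ / (N + 1) * ∫ g, l / 2 ^ k *
        (exp (Hf e g x) * exp (-Zw e (fun _ => l / 2 ^ k) g)) ∂gm I := fun k x => by
      rw [hφ]
      simp only []
      rw [integral_const_mul, integral_const_mul, integral_sub (shift_int x (nn k x _ (lk k).le))
        (shift_int x (nn k x _ (by have := lk k; positivity))), mul_left_comm]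
      refine mul_le_mul_of_nonneg_left (one_level hc O hO N hD hθ (lk k) (h.trans
        (La_anti (fun _ => by have := lk k; positivity) fun _ => ?_)) x) (lk k).le
      have : l / 2 ^ k ≤ l := div_le_self hl.le (one_le_pow₀ one_le_two)
      gcongr
    rw [integral_finsetSum _ fun k _ => integrable_finsetSum _ fun x _ => i1 k x]
    simp only [integral_finsetSum _ fun x _ => i1 _ x]
    refine (sum_le_sum fun k _ => sum_le_sum fun x _ => h1 k x).trans ?_
    simp only [← mul_sum]
    rw [mul_comm]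
    refine mul_le_mul_of_nonneg_right ?_ c0
    simp only [← integral_finsetSum _ fun x _ => i2 _ x]
    rw [← integral_finsetSum _ fun k _ => integrable_finsetSum _ fun x _ => i2 k x]
    have h2 : ∫ _g, (2 : ℝ) ∂gm I = 2 := by simp
    refine le_trans (integral_mono (integrable_finsetSum _ fun k _ =>
      integrable_finsetSum _ fun x _ => i2 k x) (integrable_const (2 : ℝ)) fun g => ?_) h2.le
    refine le_trans (le_of_eq (sum_congr rfl fun k _ => ?_))
      (tele (Zw e 1 g) l M (Zw_nonneg (fun _ => zero_le_one) g) hl)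
    rw [← mul_sum, ← sum_mul, zc, mul_assoc]
    simp [Zw]
  set B : ℕ → Set (I → ℝ) := fun M => {g | (∀ x, δ * Zw e 1 g ≤ Zw e (ind O x) g) ∧
    1 / l ≤ Zw e 1 g ∧ Zw e 1 g < 2 ^ M / l} with hB
  have b2 : ∀ M, (gm I).real (B M) ≤ 2 * exp 5 * (-log θ / (N + 1)) := fun M => by
    have h1 := mul_meas_ge_le_integral_of_nonneg (μ := gm I)
      (f := fun g => ∑ k ∈ range M, ∑ x, φ k x g)
      (ae_of_all _ fun g => sum_nonneg fun k _ => sum_nonneg fun x _ => φ0 k x g)
      (integrable_finsetSum _ fun k _ => integrable_finsetSum _ fun x _ => i1 k x) (exp (-5))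
    have h2 : (gm I).real (B M) ≤ (gm I).real {g | exp (-5) ≤ ∑ k ∈ range M, ∑ x, φ k x g} := by
      refine measureReal_mono fun g hg => ?_
      obtain ⟨g1, g2, g3⟩ := hg
      set Z := Zw e 1 g with hZ
      have z1 : 1 ≤ l * Z := by rwa [div_le_iff₀' hl] at g2
      obtain ⟨k, k1, k2⟩ := exists_nat_pow_near z1 one_lt_two
      have kM : k < M := by
        rw [lt_div_iff₀' hl] at g3
        exact (pow_lt_pow_iff_right₀ one_lt_two).1 (k1.trans_lt g3)
      have u1 : 1 ≤ l / 2 ^ k * Z := by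
        rw [div_mul_eq_mul_div, one_le_div (by positivity)]
        exact k1
      have u2 : l / 2 ^ k * Z ≤ 2 := by
        rw [div_mul_eq_mul_div, div_le_iff₀ (by positivity), ← pow_succ']
        exact k2.le
      refine le_trans ?_ (single_le_sum (f := fun k => ∑ x, φ k x g)
        (fun k _ => sum_nonneg fun x _ => φ0 k x g) (mem_range.2 kM))
      have h3 : ∀ x, l / 2 ^ k * (exp (Hf e g x) * exp (-5)) ≤ φ k x g := fun x => by
        refine mul_le_mul_of_nonneg_left ?_ (lk k).le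
        rw [← mul_sub]
        refine mul_le_mul_of_nonneg_left ?_ (exp_pos _).le
        rw [Zw_add, Zw_add, Zw_smul, Zw_smul, zc, ← hZ, neg_add, neg_add, exp_add, exp_add,
          ← mul_sub]
        have y1 : l / 2 ^ k * Zw e (ind O x) g ≤ 2 :=
          (mul_le_mul_of_nonneg_left (Zw_mono (fun z => ind_le O x z) g) (lk k).le).trans u2
        have y2 : 3 ≤ l / 2 ^ k * (3 / δ) * Zw e (ind O x) g := by
          have y3 := mul_le_mul_of_nonneg_left (g1 x) (by have := lk k; positivity :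
            0 ≤ l / 2 ^ k * (3 / δ))
          have y4 : l / 2 ^ k * (3 / δ) * (δ * Z) = 3 * (l / 2 ^ k * Z) := by field_simp
          linarith
        have y5 := exp_le_exp.2 (neg_le_neg y1)
        have y6 := exp_le_exp.2 (neg_le_neg y2)
        have y7 := exp_le_exp.2 (neg_le_neg u2)
        have y8 : exp (-2 : ℝ) = exp (-3) * exp 1 := by rw [← exp_add]; norm_num
        have y9 : exp (-5 : ℝ) = exp (-2) * exp (-3) := by rw [← exp_add]; norm_num
        have y10 := mul_le_mul_of_nonneg_left (add_one_le_exp (1 : ℝ)) (exp_pos (-3)).le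
        rw [y9]
        exact mul_le_mul y7 (by linarith) (exp_pos _).le (exp_pos _).le
      refine le_trans ?_ (sum_le_sum fun x _ => h3 x)
      rw [← mul_sum, ← sum_mul, ← mul_assoc]
      refine le_mul_of_one_le_left (exp_pos _).le (u1.trans (le_of_eq ?_))
      simp [hZ, Zw]
    have h4 : exp (5 : ℝ) * exp (-5) = 1 := by rw [← exp_add]; simp
    have h5 := mul_le_mul_of_nonneg_left ((mul_le_mul_of_nonneg_left h2 (exp_pos (-5)).le).trans
      (h1.trans (b1 M))) (exp_pos 5).le
    rw [← mul_assoc, h4, one_mul] at h5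
    linarith
  have mono : Monotone B := fun M M' hM g hg =>
    ⟨hg.1, hg.2.1, hg.2.2.trans_le (by gcongr; exact one_le_two)⟩
  have sub : {g | (∀ x, δ * Zw e 1 g ≤ Zw e (ind O x) g) ∧ 1 / l ≤ Zw e 1 g} ⊆ ⋃ M, B M :=
    fun g hg => by
      obtain ⟨M, hM⟩ := pow_unbounded_of_one_lt (l * Zw e 1 g) one_lt_two
      exact Set.mem_iUnion.2 ⟨M, hg.1, hg.2, by rwa [lt_div_iff₀' hl]⟩
  refine (measureReal_mono sub).trans ?_
  have t1 := (ENNReal.tendsto_toReal (measure_ne_top (gm I) _)).comp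
    (tendsto_measure_iUnion_atTop (μ := gm I) mono)
  exact le_of_tendsto' t1 b2

end

end Vale.Agent.P150S
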